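import Mathlib

/-!
# Thin spanning trees in finite loopless multigraphs: definitions
-/

namespace Vale.Agent.P061

/-- A finite loopless multigraph with vertex set `V` and edge copies `E`: each copy has two
distinct endpoints, and parallel copies are allowed. -/
structure MultiGraph (V E : Type) where
  fst : E → V
  snd : E → V
  ne : ∀ e, fst e ≠ snd e

variable {V E : Type}

/-- `δ_F(S)`: the edge copies of `F` with exactly one endpoint in `S`. -/
def MultiGraph.cut [DecidableEq V] (G : MultiGraph V E) (F : Finset E) (S : Finset V) : Finset E :=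
  F.filter fun e => (G.fst e ∈ S ∧ G.snd e ∉ S) ∨ (G.fst e ∉ S ∧ G.snd e ∈ S)

/-- `G` is `k`-edge-connected: every nonempty proper vertex set has at least `k` edge copies
leaving it. -/
def MultiGraph.EdgeConnected [DecidableEq V] [Fintype V] [Fintype E] (G : MultiGraph V E)
    (k : ℕ) : Prop :=
  ∀ S : Finset V, S.Nonempty → S ≠ Finset.univ → k ≤ (G.cut Finset.univ S).card

/-- The simple graph on `V` whose edges are the endpoint pairs of the copies in `F`. -/
def MultiGraph.graphOf (G : MultiGraph V E) (F : Finset E) : SimpleGraph V :=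
  SimpleGraph.fromEdgeSet {x | ∃ e ∈ F, x = s(G.fst e, G.snd e)}

/-- `T` is a spanning tree of `G`: a set of `|V| - 1` edge copies forming a tree on `V`. -/
def MultiGraph.IsSpanningTree [Fintype V] (G : MultiGraph V E) (T : Finset E) : Prop :=
  (G.graphOf T).IsTree ∧ T.card + 1 = Fintype.card V

/-- `T` is `α`-thin in `G`: `|δ_T(S)| ≤ α |δ_G(S)|` for every nonempty proper `S`. -/
def MultiGraph.IsThin [DecidableEq V] [Fintype V] [Fintype E] (G : MultiGraph V E) (α : ℝ)
    (T : Finset E) : Prop :=
  ∀ S : Finset V, S.Nonempty → S ≠ Finset.univ →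
    ((G.cut T S).card : ℝ) ≤ α * ((G.cut Finset.univ S).card : ℝ)

end Vale.Agent.P061
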